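import Vale.Agent.P032.R2.H544.Five3
import Vale.Agent.P032.S5.H358.NoSpec

/-!
# P032: the convexity statement at corners whose circles are tie words

`L3_node_ok`: `S5.H450.L3_node` for a corner whose circle is a tie word without special ends
(`S5.H358.OkC`); in particular harmless contacts are allowed.  So `L3p` holds if all circles of two-pair
points are such words, and then clean points with five colours do not exist.
-/

open Set Filter Topology Metric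

noncomputable section

namespace Vale.Agent.P032.R2.H544

open Vale.Agent.P032 Vale.Agent.P032.Six Vale.Agent.P032.S5 Vale.Agent.P032.S5.H122
open Vale.Agent.P032.S5.H450

variable {U : Fin 6 → Set ℂ} {T : ℂ → Set (Fin 6)} {X : Set (Fin 6)} {z v q : ℂ} {d f : Fin 6}

/-- **L2 and L3 for the second centre**, `OkC` circle: `w` light at `v` and `q`, `X`-points of `S(w)` only `v`,
`Xᶜ`-points only `q` and `s`. -/
theorem L3_node_ok (h : Irr U T)
    (hmin : ∀ z, 4 ≤ (T z).ncard → ∀ s, s ⊆ T z → s ≠ T z →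
      ¬ ∀ᶠ w in 𝓝 z, ∃ i ∈ s, w ∈ U i ∨ (w ∈ XX U ∧ i ∈ Pal U w))
    {w s : ℂ} {a : Fin 6} (N : Nd T X w v q) (K : H358.OkC U T w)
    (ha : a ∈ X) (haw : a ∉ T w) (hd : d ∈ Xᶜ) (hdw : d ∉ T w)
    (hx : ∀ x, dist x w = 1 → T x = X → x = v)
    (hy : ∀ y, dist y w = 1 → T y = Xᶜ → y = q ∨ y = s) :
    ∃ α β γ : ℝ, 0 < α ∧ 0 < β ∧ 0 < γ ∧
      (α : ℂ) * (v - w) + (β : ℂ) * (q - w) + (γ : ℂ) * (s - w) = 0 := by
  have hcapX : T w ∩ X = X \ {a} := by
    have := N.inter_eq h ha haw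
    rwa [N.Tv] at this
  have hcapY : T w ∩ Xᶜ = Xᶜ \ {d} := by
    have := N.swap.inter_eq h hd hdw
    rwa [N.Tq] at this
  have k1 : (T w ∩ X).ncard = 2 := by rw [hcapX]; exact N.two_sdiff ha
  have k2 : (T w ∩ Xᶜ).ncard = 2 := by rw [hcapY]; exact N.swap.two_sdiff hd
  have h4 : (T w).ncard = 4 := by
    have h8 := Set.ncard_inter_add_ncard_sdiff_eq_ncard (T w) X (Set.toFinite _)
    have h9 : T w \ X = T w ∩ Xᶜ := rfl
    rw [h9] at h8
    omega
  have hpairs : ∀ y, dist y w = 1 → (∀ᶠ q in 𝓝[sphere w 1] y, T q = T y) → T y ⊆ T w →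
      T y = T w ∩ X ∨ T y = T w ∩ Xᶜ := fun y h5 h6 h7 =>
    pairs_of h hmin N ha haw h4 h5 h6 h7
  have clv : H349.Cln T w v := by
    refine N.cln h ha haw ?_
    filter_upwards [self_mem_nhdsWithin] with y h5 h6
    exact hx y h5 h6
  have cly : ∀ y, dist y w = 1 → T y = Xᶜ → H349.Cln T w y := by
    intro y hyw hTy
    have Ny : Nd T X w v y :=
      ⟨N.hX, N.dv, by rw [dist_comm]; exact hyw, N.Tv, hTy, N.anti_y h ha haw hyw hTy⟩
    refine Ny.swap.cln h hd hdw ?_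
    have hfin : ∀ᶠ x in 𝓝 y, x ∈ ({q, s} : Set ℂ) → x = y := by
      have h5 : ({q, s} : Set ℂ) \ {y} ⊆ {y}ᶜ := fun x hx => hx.2
      have h6 : (({q, s} : Set ℂ) \ {y})ᶜ ∈ 𝓝 y := by
        refine IsOpen.mem_nhds ?_ (fun h7 => h7.2 rfl)
        exact (Set.toFinite _).isClosed.isOpen_compl
      filter_upwards [h6] with x h7 h8
      by_contra h9
      exact h7 ⟨h8, h9⟩
    filter_upwards [mem_nhdsWithin_of_mem_nhds hfin, self_mem_nhdsWithin] with x h5 h6 h7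
    exact h5 (hy x h6 h7)
  have hcl : ∀ y, dist y w = 1 → T y = X ∨ T y = Xᶜ → H349.Cln T w y := by
    rintro y h5 (h6 | h6)
    · rw [hx y h5 h6]; exact clv
    · exact cly y h5 h6
  have hv : En T X w v := en_of_cln h4 k1 N.dvc N.Tv clv
  have hq : En T Xᶜ w q := en_of_cln h4 k2 N.swap.dvc N.Tq (cly q N.swap.dvc N.Tq)
  rcases H358.L2_ok h N.hX K hpairs hcl hv hq with ⟨v', h5, h6⟩ | ⟨q', h5, h6⟩
  · exact absurd (hx v' h6.2.2.2.1 h6.1) h5
  · have h7 : q' = s := by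
      rcases hy q' h6.2.2.2.1 h6.1 with h7 | h7
      · exact absurd h7 h5
      · exact h7
    subst h7
    exact H358.L3_ok h N.hX K hpairs hcl hv hq h6 (Ne.symm h5)
      (fun v' h8 => hx v' h8.2.2.2.1 h8.1) fun p h8 => hy p h8.2.2.2.1 h8.1

/-- **`L3p` from tie words** -/
theorem L3p_of_ok (h : Irr U T)
    (hmin : ∀ z, 4 ≤ (T z).ncard → ∀ s, s ⊆ T z → s ≠ T z →
      ¬ ∀ᶠ w in 𝓝 z, ∃ i ∈ s, w ∈ U i ∨ (w ∈ XX U ∧ i ∈ Pal U w))
    (hK : ∀ w a b c d, DPt T w a b c d → H358.OkC U T w) : L3p T := by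
  intro X w v q s a d N ha haw hd hdw hx hy
  obtain ⟨a', b', c', d', hD⟩ := dpt_of_light h N ha haw hd hdw
  exact L3_node_ok h hmin N (hK w a' b' c' d' hD) ha haw hd hdw hx hy

/-- **No clean point with five colours** if the circles of the two-pair points are tie words. -/
theorem no_five_ok (h : Irr U T)
    (hmin : ∀ z, 4 ≤ (T z).ncard → ∀ s, s ⊆ T z → s ≠ T z →
      ¬ ∀ᶠ w in 𝓝 z, ∃ i ∈ s, w ∈ U i ∨ (w ∈ XX U ∧ i ∈ Pal U w))
    (hK : ∀ w a b c d, DPt T w a b c d → H358.OkC U T w)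
    (h5 : (T z).ncard = 5) (h3 : ∀ y, dist y z = 1 → (T y).ncard ≤ 3) : False :=
  no_five_L3 h hmin (L3p_of_ok h hmin hK) h5 h3

end Vale.Agent.P032.R2.H544
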