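import Vale.Agent.P032.R2.H544.Five3
import Vale.Agent.P032.Words6.H306.SixLoc

/-!
# P032: five and six coloured points in the world `N3`

If two points of order `> 3` at distance one have at most two common colours (`N3`), and the
convexity statement `L3p` holds at corners, then there is no point with five colours, and every point
with six colours misses one colour in the pairs on its unit circle (`no_six_N3`).  So all orders are
at most four up to such points (`le4_of_N3`).
-/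

open Set Filter Topology Metric

noncomputable section

namespace Vale.Agent.P032.R2.H544

open Vale.Agent.P032 Vale.Agent.P032.Six Vale.Agent.P032.S5 Vale.Agent.P032.S5.H450
open Vale.Agent.P032.S5.H410

variable {U : Fin 6 → Set ℂ} {T : ℂ → Set (Fin 6)} {X : Set (Fin 6)} {z v q : ℂ} {s t : Fin 6}

/-- the second centre is not light at both ends (172's `compl6`, clean circle of the second centre
only) -/
theorem light_false_L3 (h : Irr U T) (hL : L3p T)
    (N : Nd T X z v q) (hz : T z = univ) (hs : s ∈ X) (ht : t ∈ Xᶜ)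
    (hsw : s ∉ T (v + q - z)) (htw : t ∉ T (v + q - z)) : False := by
  have sub : ∀ {Y : Set (Fin 6)}, Y ⊆ T z := fun {Y} => by rw [hz]; exact subset_univ _
  have sv : Stay T z v s := N.other.stay h hs hsw N.ne_other.symm sub
  have sq : Stay T z q t := N.other.swap.stay h ht htw N.ne_other.symm sub
  set w := v + q - z with hw
  have Nw : Nd T X w v q := N.other
  have hx : ∀ x, dist x w = 1 → T x = X → x = v := fun x h1 h2 =>
    N.uniq_v h hs ht sv sq sub h1 h2
  have hy : ∀ y, dist y w = 1 → T y = Xᶜ → y = q ∨ y = q := by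
    intro y h1 h2
    refine Or.inl (N.swap.uniq_v h (s := t) (t := s) ht (by rw [compl_compl]; exact hs) sq sv
      sub ?_ h2)
    rw [add_comm q v]
    exact h1
  obtain ⟨α, β, γ, hα, hβ, hγ, e⟩ := hL X w v q q s t Nw hs hsw ht htw hx hy
  have e1 : (α : ℂ) * (v - w) = -(((β + γ : ℝ) : ℂ) * (q - w)) := by
    push_cast
    linear_combination e
  have n1 : ‖v - w‖ = 1 := by rw [← dist_eq_norm]; exact Nw.dvc
  have n2 : ‖q - w‖ = 1 := by rw [← dist_eq_norm]; exact Nw.swap.dvc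
  have e2 := congrArg norm e1
  rw [norm_neg, norm_mul, norm_mul, n1, n2, mul_one, mul_one, Complex.norm_real, Complex.norm_real,
    Real.norm_of_nonneg hα.le, Real.norm_of_nonneg (by positivity)] at e2
  rw [e2] at e1
  have hne0 : ((β + γ : ℝ) : ℂ) ≠ 0 := by
    rw [Ne, Complex.ofReal_eq_zero]
    positivity
  have e3 : v - w = -(q - w) := by
    refine mul_left_cancel₀ hne0 ?_
    rw [e1]; ring
  exact Nw.op (by linear_combination e3)

/-- **The complement rule at a six coloured point**, `L3p` at the corners. -/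
theorem r_strong_L3 (h : Irr U T) (hL : L3p T) (hz : T z = univ)
    (h5 : ∀ w, (T w).ncard ≠ 5) (N : Nd T X z v q) : False := by
  refine heavy_false h hz N fun v' q' N' => ?_
  rcases cases_w h N' with h1 | h1 | ⟨⟨s, hs, hsw⟩, t, ht, htw⟩
  · exact h1
  · exact absurd h1 (h5 _)
  · exact (light_false_L3 h hL N' hz hs ht hsw htw).elim

end Vale.Agent.P032.R2.H544

namespace Vale.Agent.P032.R2.H544

open Vale.Agent.P032.Six Vale.Agent.P032.S5.H767 Vale.Agent.P032.Words6.H704
  Vale.Agent.P032.Words6.H46 Vale.Agent.P032.Words6.H343 Vale.Agent.P032.Words6.H503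
  Vale.Agent.P032.Words.Trie Vale.Agent.P032.Words6

/-- **No six coloured point with a clean circle and all colours active**, `L3p` at the corners. -/
theorem no_six_L3 {U : Fin 6 → Set ℂ} {T : ℂ → Set (Fin 6)} (h : Irr U T)
    (hmin : ∀ z, 4 ≤ (T z).ncard → ∀ s, s ⊆ T z → s ≠ T z →
      ¬ ∀ᶠ w in 𝓝 z, ∃ i ∈ s, w ∈ U i ∨ (w ∈ XX U ∧ i ∈ Pal U w))
    (htab : ∀ L ∈ H122.Lets35, H358.TreeOK L)
    (hL : L3p T) (h5 : ∀ w, (T w).ncard ≠ 5) {z : ℂ} (h6 : (T z).ncard = 6)
    (hcl : ∀ y, dist y z = 1 → (T y).ncard ≤ 3)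
    (hact : ∀ i, ∃ q, dist q z = 1 ∧ i ∈ T q ∧ (T q).ncard = 2) : False := by
  have hz : T z = univ := by
    refine Set.eq_of_subset_of_ncard_le (subset_univ _) ?_ (Set.toFinite _)
    rw [Set.ncard_univ, Nat.card_eq_fintype_card, Fintype.card_fin, h6]
  obtain ⟨C, hs, hi, ha, hdeg, hcut⟩ := start h hmin h6 hcl hact
  obtain ⟨L, hL', f, hf, hf6, hM⟩ := H122.classify35 hs hi ha hdeg hcut
  have S := hl_sel (M := MC T z) C fun v hv => C.hd hmin (H229.mem_dats hL') hf hf6 hM hv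
  have hrs : ∀ X : Set (Fin 6), X.ncard = 3 → RS T z X := by
    intro X hX v q hv hq hTv hTq
    by_contra hne
    exact r_strong_L3 h hL hz h5
      (⟨hX, by rw [dist_comm]; exact hv, by rw [dist_comm]; exact hq, hTv, hTq, hne⟩ :
        S5.H450.Nd T X z v q)
  obtain ⟨μ, hμ⟩ := H358.exists_mu hrs hf hf6
  obtain ⟨ls, h1, h2⟩ := htab L hL'
  obtain ⟨l, hl, h3⟩ := h1 μ
  obtain ⟨D, hB, hok, hokL, rfl⟩ := h2 l hl
  refine H571.leaf_core C hact S (fun v h hv => hl_leg v h hv) (fun v h hv => hl_rot hv) hB hok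
    (E := ⟨hf, hf6, hM⟩) (H229.okL_bridge hok hokL) fun p hp => ?_
  have h4 := hμ p.1
  rw [h3 p hp] at h4
  exact h4

/-- **No six coloured point with all colours active in the world `N3`**, given `L3p`. -/
theorem no_six_N3 {U : Fin 6 → Set ℂ} {T : ℂ → Set (Fin 6)} (h : Irr U T)
    (hmin : ∀ z, 4 ≤ (T z).ncard → ∀ s, s ⊆ T z → s ≠ T z →
      ¬ ∀ᶠ w in 𝓝 z, ∃ i ∈ s, w ∈ U i ∨ (w ∈ XX U ∧ i ∈ Pal U w))
    (htab : ∀ L ∈ H122.Lets35, H358.TreeOK L)
    (hN : N3 T) (hL : L3p T) {z : ℂ} (h6 : (T z).ncard = 6)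
    (hact : ∀ i, ∃ q, dist q z = 1 ∧ i ∈ T q ∧ (T q).ncard = 2) : False :=
  no_six_L3 h hmin htab hL (no_five_N3 h hmin hN hL) h6 (fun _ hy => hN.clean5 (by omega) hy) hact

/-- **Orders at most four in the world `N3`**, given `L3p`, up to six coloured points with a silent
colour. -/
theorem le4_of_N3 {U : Fin 6 → Set ℂ} {T : ℂ → Set (Fin 6)} (h : Irr U T)
    (hmin : ∀ z, 4 ≤ (T z).ncard → ∀ s, s ⊆ T z → s ≠ T z →
      ¬ ∀ᶠ w in 𝓝 z, ∃ i ∈ s, w ∈ U i ∨ (w ∈ XX U ∧ i ∈ Pal U w))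
    (htab : ∀ L ∈ H122.Lets35, H358.TreeOK L)
    (hN : N3 T) (hL : L3p T)
    (hact : ∀ z, (T z).ncard = 6 → ∀ i, ∃ q, dist q z = 1 ∧ i ∈ T q ∧ (T q).ncard = 2) (z : ℂ) :
    (T z).ncard ≤ 4 := by
  have h5 := no_five_N3 h hmin hN hL z
  have h6 : (T z).ncard ≠ 6 := fun h6 => no_six_N3 h hmin htab hN hL h6 (hact z h6)
  have h7 : (T z).ncard ≤ 6 := by
    have h1 := Set.ncard_le_ncard (s := T z) (t := univ) (subset_univ _) (Set.toFinite _)
    rwa [Set.ncard_univ, Nat.card_eq_fintype_card, Fintype.card_fin] at h1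
  omega

end Vale.Agent.P032.R2.H544
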