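import Vale.Agent.P032.R2.H544.Corner3
import Vale.Agent.P032.R2.H544.Six3
import Vale.Agent.P032.R2.H333.E3f
import Vale.Agent.P032.R2.H951.Rel6

/-!
# P032: the world without stopped arcs has no points with five or six colours

The two hypotheses `H5` and `H6` of `resultE6` (R2/H951/FinalW.lean).

* `E3T.h5` : frames with `E3`, at most five colours, clean points of order five: empty.
* `E3T.h6` : with the tree table `htab`: no six coloured point with all colours active.
-/

open Set Filter Topology Metric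

noncomputable section

namespace Vale.Agent.P032.R2.H544

open Vale.Agent.P032 Vale.Agent.P032.Six

variable {U : Fin 6 → Set ℂ} {T : ℂ → Set (Fin 6)}

theorem loc4_of_cl5 (hc : Cl5 T) : Loc4 T := by
  intro z y hyz hz
  by_contra h
  push Not at h
  exact hc y z hyz hz (by omega)

namespace E3T

theorem toW (h : Irr U T) (hmin : Mn U T) (hE : E3 T) (hc : Cl5 T) : E3W U T :=
  ⟨h, hmin, loc4_of_cl5 hc, hE⟩

theorem l3p (h : Irr U T) (hmin : Mn U T) (hE : E3 T) (hc : Cl5 T) : L3p T :=
  L3p_of_ok3 h hmin fun _ _ _ _ _ hD => (toW h hmin hE hc).okC3 hD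

theorem no5 (h : Irr U T) (hmin : Mn U T) (hE : E3 T) (hc : Cl5 T) (z : ℂ) :
    (T z).ncard ≠ 5 := by
  intro h5
  refine no_five_L3 h hmin (l3p h hmin hE hc) h5 fun y hy => ?_
  by_contra h3
  push Not at h3
  exact hc z y (by rw [dist_comm]; exact hy) (by omega) (by omega)

/-- **`H5` of `resultE6`** -/
theorem h5 (V : Fin 6 → Set ℂ) (T : ℂ → Set (Fin 6)) (h : Irr V T) (hmin : Mn V T) (hE : E3 T)
    (h5 : ∀ z, (T z).ncard ≤ 5) (hc : Cl5 T) : False :=
  (toW h hmin hE hc).empty4 fun z => by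
    have h1 := h5 z
    have h2 := no5 h hmin hE hc z
    omega

/-- **`H6` of `resultE6`**, given the tree table -/
theorem h6 (htab : ∀ L ∈ Vale.Agent.P032.Words6.H122.Lets35, Vale.Agent.P032.Words6.H358.TreeOK L)
    (V : Fin 6 → Set ℂ) (T : ℂ → Set (Fin 6)) (h : Irr V T) (hmin : Mn V T) (hE : E3 T)
    (hc : Cl5 T) (z : ℂ) (h6 : (T z).ncard = 6)
    (hact : ∀ i, ∃ q, dist q z = 1 ∧ i ∈ T q ∧ (T q).ncard = 2) : False := by
  refine no_six_L3 h hmin htab (l3p h hmin hE hc) (no5 h hmin hE hc) h6 (fun y hy => ?_) hact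
  by_contra h3
  push Not at h3
  exact hc z y (by rw [dist_comm]; exact hy) (by omega) (by omega)

end E3T

end Vale.Agent.P032.R2.H544
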