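import Vale.Agent.P032.S5.H229.K5

/-!
# P032: five coloured points when points of order > 3 at distance one share at most two colours

The tree excludes a five coloured point `z` whose circle is clean (`H229.no_five_gen`) with one
non-local input: the circles of the corners `v + q - z` are clean.  It is used only for the convexity
statement `L3p` at such corners.  Here the theorem is stated with `L3p` instead.  If two points of
order `> 3` at distance one never have three common colours (`N3`), then the circle of a five coloured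
point is clean.
-/

open Set Filter Topology Metric

noncomputable section

namespace Vale.Agent.P032.R2.H544

open Vale.Agent.P032 Vale.Agent.P032.Six Vale.Agent.P032.S5 Vale.Agent.P032.S5.H122
open Vale.Agent.P032.S5.H450

variable {U : Fin 6 → Set ℂ} {T : ℂ → Set (Fin 6)} {X : Set (Fin 6)} {z v q : ℂ} {d f : Fin 6}
  {e : Fin 6 → Fin 6}

/-- **Convexity at a corner**: `w` light at the `X`-point `v` and at the `Xᶜ`-point `q`, no further
`X`-point on `S(w)`, no further `Xᶜ`-point except `s`. -/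
def L3p (T : ℂ → Set (Fin 6)) : Prop :=
  ∀ (X : Set (Fin 6)) (w v q s : ℂ) (a d : Fin 6), Nd T X w v q → a ∈ X → a ∉ T w →
    d ∈ Xᶜ → d ∉ T w → (∀ x, dist x w = 1 → T x = X → x = v) →
    (∀ y, dist y w = 1 → T y = Xᶜ → y = q ∨ y = s) →
    ∃ α β γ : ℝ, 0 < α ∧ 0 < β ∧ 0 < γ ∧
      (α : ℂ) * (v - w) + (β : ℂ) * (q - w) + (γ : ℂ) * (s - w) = 0

/-- two points of order `> 3` at distance one have at most two common colours -/
def N3 (T : ℂ → Set (Fin 6)) : Prop :=
  ∀ x y, dist x y = 1 → 4 ≤ (T x).ncard → 4 ≤ (T y).ncard → (T x ∩ T y).ncard ≤ 2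

/-- the circle of a point of order `≥ 5` is clean in the world `N3` -/
theorem N3.clean5 (hN : N3 T) (h5 : 5 ≤ (T z).ncard) {y : ℂ} (hy : dist y z = 1) :
    (T y).ncard ≤ 3 := by
  by_contra h1
  push Not at h1
  have h2 := hN y z hy (by omega) (by omega)
  have h3 := Set.ncard_union_add_ncard_inter (T y) (T z) (Set.toFinite _) (Set.toFinite _)
  have h4 : (T y ∪ T z).ncard ≤ 6 := by
    have := Set.ncard_le_ncard (subset_univ (T y ∪ T z)) (Set.toFinite _)
    rwa [Set.ncard_univ, Nat.card_eq_fintype_card, Fintype.card_fin] at this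
  omega

/-- clean circles of corners give `L3p` -/
theorem L3p_of_clean (h : Irr U T)
    (hmin : ∀ z, 4 ≤ (T z).ncard → ∀ s, s ⊆ T z → s ≠ T z →
      ¬ ∀ᶠ w in 𝓝 z, ∃ i ∈ s, w ∈ U i ∨ (w ∈ XX U ∧ i ∈ Pal U w))
    (hl : ∀ X c v x a d, Nd T X c v x → a ∈ X → a ∉ T c → d ∈ Xᶜ → d ∉ T c →
      ∀ y, dist y c = 1 → (T y).ncard ≤ 3) : L3p T :=
  fun X w v q _ a d N ha haw hd hdw hx hy =>
    L3_node h hmin N (hl X w v q a d N ha haw hd hdw) ha haw hd hdw hx hy

/-- **The rule (1,1)** with `L3p` at the corners. -/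
theorem one_one_L3 (h : Irr U T) (hL : L3p T)
    (h5 : (T z).ncard = 5) (hX : X.ncard = 3) (hXz : Xᶜ ⊆ T z) (hd : d ∈ Xᶜ)
    (hno : ∀ y, dist y z = 1 → T y ≠ Xᶜ \ {d}) {v v' q q' : ℂ}
    (hv : ∃ P, T z ∩ X ⊆ P ∧ v ∈ closure (H767.Ex T z P))
    (hv' : ∃ P, T z ∩ X ⊆ P ∧ v' ∈ closure (H767.Ex T z P))
    (hTv : T v = X) (hTv' : T v' = X) (hq : dist q z = 1) (hq' : dist q' z = 1)
    (hTq : T q = Xᶜ) (hTq' : T q' = Xᶜ) : v = v' ∧ q = q' := by
  have hXc : Xᶜ.ncard = 3 := ncard_compl_three' hX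
  -- the missing colour
  obtain ⟨f, hf, hfz⟩ : ∃ f ∈ X, f ∉ T z := by
    by_contra hcon
    push Not at hcon
    have h1 : T z = univ := by
      ext i
      simp only [mem_univ, iff_true]
      by_cases hi : i ∈ X
      · exact hcon i hi
      · exact hXz hi
    rw [h1, Set.ncard_univ, Nat.card_eq_fintype_card, Fintype.card_fin] at h5
    omega
  -- nodes
  have node : ∀ {x y : ℂ}, (∃ P, T z ∩ X ⊆ P ∧ x ∈ closure (H767.Ex T z P)) → T x = X →
      dist y z = 1 → T y = Xᶜ → Nd T X z x y := by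
    rintro x y ⟨P, hP, hx⟩ hTx hy hTy
    refine ⟨hX, by rw [dist_comm]; exact H767.dist_of_closure hx, by rw [dist_comm]; exact hy,
      hTx, hTy, fun h1 => ?_⟩
    refine H767.anti h (z := z) (y := y) hy (by rw [hTy, hXc]) (P := P) (fun i hi => ?_) ?_
    · by_cases h2 : i ∈ X
      · exact Or.inr (hP ⟨hi, h2⟩)
      · exact Or.inl (by rw [hTy]; exact h2)
    · have e : 2 * z - y = x := by linear_combination -h1
      rw [e]; exact hx
  have stay : ∀ {y : ℂ}, dist y z = 1 → T y = Xᶜ → Stay T z y d := by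
    intro y hy hTy
    unfold Stay
    filter_upwards [mem_nhdsWithin_of_mem_nhds (h.nhd y), self_mem_nhdsWithin] with x h1 h2
    by_contra h3
    have h4 : T x ⊆ Xᶜ \ {d} := fun i hi => ⟨hTy ▸ h1 hi, fun h6 => h3 (by
      rw [mem_singleton_iff] at h6; exact h6 ▸ hi)⟩
    have h6 : (Xᶜ \ {d} : Set (Fin 6)).ncard = 2 := by
      rw [Set.ncard_sdiff_singleton_of_mem hd, hXc]
    have h7 := h.pair_open (z := z) h6 (sdiff_subset.trans hXz) h4
    exact hno x h2 (h7.self_of_nhdsWithin h2)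
  have N := node hv hTv hq hTq
  have st := stay hq hTq
  constructor
  · -- one `X`-end
    have N' := node hv' hTv' hq hTq
    have h1 := N.other.swap.unique h N'.other.swap hd (N.miss h st) (N'.miss h st)
    linear_combination h1
  · -- one `Xᶜ`-point
    by_contra hqq
    have N' := node hv hTv hq' hTq'
    have st' := stay hq' hTq'
    set w := v + q - z with hw
    set w' := v + q' - z with hw'
    have Nw : Nd T X w v q := N.other
    have Nw' : Nd T X w' v q' := N'.other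
    have hdw : d ∉ T w := N.miss h st
    have hdw' : d ∉ T w' := N'.miss h st'
    have hwz : w ≠ z := N.ne_other
    have hwz' : w' ≠ z := N'.ne_other
    have hww' : w ≠ w' := fun h1 => hqq (by linear_combination h1 - hw + hw')
    have hfw : f ∈ T w := by
      by_contra h1
      exact hwz (Nw.unique h N hf h1 hfz)
    have hfw' : f ∈ T w' := by
      by_contra h1
      exact hwz' (Nw'.unique h N' hf h1 hfz)
    -- isolated `X`-points on `S(z)`
    have iso : ∀ᶠ y in 𝓝[sphere z 1] v, T y = X → y = v := by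
      have h3 : ∀ᶠ y in 𝓝 v, y + q ≠ 2 * z := by
        have hc : Continuous fun y : ℂ => y + q := by fun_prop
        exact hc.continuousAt.eventually (isOpen_ne.mem_nhds N.op)
      filter_upwards [mem_nhdsWithin_of_mem_nhds h3, self_mem_nhdsWithin] with y h4 h6 h7
      have Ny : Nd T X z y q :=
        ⟨hX, by rw [dist_comm]; exact h6, N.dq, h7, hTq, h4⟩
      have h8 := Ny.other.swap.unique h Nw.swap hd (Ny.miss h st) hdw
      linear_combination h8 + hw
    -- a heavy and a light centre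
    have mixed : ∀ {c c' : ℂ} {b : Fin 6} {x : ℂ}, Nd T X c' v x → X ⊆ T c → dist c v = 1 →
        b ∈ X → b ∉ T c' → b ∈ T z → z ≠ c → z + c ≠ 2 * v → c ≠ c' → False := by
      intro c c' b x Nc' hc hcv hb hbc' hbz h1 h2 h3
      rcases Nc'.heavy_line h hb hbc' hcv h3 hc (p' := z) N.dv hbz with h4 | h4
      · exact h1 h4
      · exact h2 h4
    have hin : ∀ {b : Fin 6}, b ∈ X → b ≠ f → b ∈ T z := fun hb hbf =>
      N.rest h hf hfz ⟨hb, hbf⟩
    by_cases hW : X ⊆ T w
    · by_cases hW' : X ⊆ T w'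
      · rcases N.heavy_line h hf hfz Nw.dv hwz hW (p' := w') Nw'.dv hfw' with h1 | h1
        · exact hww' h1.symm
        · exact N.no_tangent h hf hfz iso Nw'.dv h1 hW' hW
      · obtain ⟨b, hb, hbw'⟩ : ∃ b ∈ X, b ∉ T w' := by
          by_contra hcon
          push Not at hcon
          exact hW' hcon
        have hbf : b ≠ f := fun h1 => hbw' (h1 ▸ hfw')
        exact mixed Nw' hW Nw.dv hb hbw' (hin hb hbf) hwz.symm
          (fun h1 => N.ne (by linear_combination hw - h1)) hww'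
    · obtain ⟨a, ha, haw⟩ : ∃ a ∈ X, a ∉ T w := by
        by_contra hcon
        push Not at hcon
        exact hW hcon
      have haf : a ≠ f := fun h1 => haw (h1 ▸ hfw)
      by_cases hW' : X ⊆ T w'
      · exact mixed Nw hW' Nw'.dv ha haw (hin ha haf) hwz'.symm
          (fun h1 => N'.ne (by linear_combination hw' - h1)) hww'.symm
      · obtain ⟨b, hb, hbw'⟩ : ∃ b ∈ X, b ∉ T w' := by
          by_contra hcon
          push Not at hcon
          exact hW' hcon
        have hbf : b ≠ f := fun h1 => hbw' (h1 ▸ hfw')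
        have hab : a ≠ b := fun h1 => hww' (Nw.unique h Nw' ha haw (h1 ▸ hbw'))
        have hX3 : ∀ i ∈ X, i = f ∨ i = a ∨ i = b := by
          intro i hi
          by_contra hcon
          push Not at hcon
          have h1 : ({i, f, a, b} : Set (Fin 6)) ⊆ X := by
            rintro m (rfl | rfl | rfl | rfl) <;> assumption
          have h2 := Set.ncard_le_ncard h1 (Set.toFinite _)
          rw [Set.ncard_insert_of_notMem (by simp [hcon.1, hcon.2.1, hcon.2.2]) (Set.toFinite _),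
            Set.ncard_insert_of_notMem (by simp [haf.symm, hbf.symm]) (Set.toFinite _),
            Set.ncard_pair hab] at h2
          omega
        obtain ⟨α, β, γ, hα, hβ, hγ, e1⟩ := hL X w v q (w + w' - v) a d Nw ha haw hd hdw
          (fun x h1 h2 => N.xpts h hf hfz hXz hd st h1 h2)
          (fun y h1 h2 => N.ypts h Nw' hX3 hf ha hb hfz haw hbw' hfw hfw' hww' h1 h2)
        obtain ⟨α', β', γ', hα', hβ', hγ', e2⟩ := hL X w' v q' (w' + w - v) b d Nw' hb hbw' hd hdw'
          (fun x h1 h2 => N'.xpts h hf hfz hXz hd st' h1 h2)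
          (fun y h1 h2 => N'.ypts h Nw (fun i hi => (hX3 i hi).imp_right Or.symm) hf hb ha hfz
            hbw' haw hfw' hfw hww'.symm h1 h2)
        have hcr : cr (v - w) (v - z) ≠ 0 := cr_ne Nw.dvc N.dvc hwz
          (fun h1 => N.ne (by linear_combination hw - h1))
        have a1 := congrArg Complex.re e1
        have a2 := congrArg Complex.im e1
        have b1 := congrArg Complex.re e2
        have b2 := congrArg Complex.im e2
        have hq1 : q = w + z - v := by linear_combination -hw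
        have hq2 : q' = w' + z - v := by linear_combination -hw'
        rw [hq1] at a1 a2
        rw [hq2] at b1 b2
        simp only [Complex.add_re, Complex.mul_re, Complex.sub_re, Complex.ofReal_re,
          Complex.ofReal_im, zero_mul, sub_zero, Complex.zero_re, Complex.add_im, Complex.mul_im,
          Complex.sub_im, add_zero, Complex.zero_im] at a1 a2 b1 b2
        have key : (α' * β + γ * β') * cr (v - w) (v - z) = 0 := by
          unfold cr
          simp only [Complex.sub_re, Complex.sub_im]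
          linear_combination (-α' * (v.re - w.re)) * a2 + (α' * (v.im - w.im)) * a1 +
            (-γ * (v.re - w.re)) * b2 + (γ * (v.im - w.im)) * b1
        rcases mul_eq_zero.1 key with h1 | h1
        · have : 0 < α' * β + γ * β' := by positivity
          linarith
        · exact hcr h1

/-- **The contacts `E_a | f` and `E_b | E_c`** (`b`, `c` complementary to `a`, `f`). -/
theorem cnt5_L3 (C : Cn U T z e)
    (hL : L3p T)
    {a b c : Fin 6} (ha : a ≠ 5) (hbc : b ≠ c) (hab : ixs b ∪ ixs c = (ixs a ∪ ixs 5)ᶜ)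
    {u u' w w' : ℝ} (hua : u ∈ X5 T z e a) (hu5 : u ∈ X5 T z e 5) (hua' : u' ∈ X5 T z e a)
    (hu5' : u' ∈ X5 T z e 5) (hwb : w ∈ X5 T z e b) (hwc : w ∈ X5 T z e c)
    (hwb' : w' ∈ X5 T z e b) (hwc' : w' ∈ X5 T z e c) :
    (∃ n : ℤ, u = u' + 6 * (n : ℝ)) ∧ ∃ n : ℤ, w = w' + 6 * (n : ℝ) := by
  obtain ⟨⟨x, hxb, hxc⟩, h3, h5bc⟩ := cnt_key2 a b c ha hbc hab
  have h5 : (T z).ncard = 5 := by
    have h1 := C.five
    by_contra hne
    have h2 : e 5 ∈ T z := by
      have h4 : T z = univ := by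
        refine Set.eq_of_subset_of_ncard_le (subset_univ _) ?_ (Set.toFinite _)
        rw [Set.ncard_univ, Nat.card_eq_fintype_card, Fintype.card_fin]
        omega
      rw [h4]; exact mem_univ _
    exact (C.pal 5).1 h2 rfl
  have hX3 : (col e a ∪ col e 5).ncard = 3 := by
    rw [← C.card, Sx_union C, h3]
  have hcompl : col e b ∪ col e c = (col e a ∪ col e 5)ᶜ := by
    refine Sx_inj C ?_
    rw [Sx_union C, Sx_compl, Sx_union C, hab]
  have hXz : (col e a ∪ col e 5)ᶜ ⊆ T z := by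
    rw [← hcompl]
    intro i hi
    obtain ⟨l, rfl⟩ := C.bij.2 i
    have h1 : l ∈ ixs b ∪ ixs c := by rw [← Sx_union C, mem_Sx]; exact hi
    exact (C.pal l).2 fun h2 => h5bc (h2 ▸ h1)
  have hd : e x ∈ (col e a ∪ col e 5)ᶜ := by
    rw [← hcompl]
    exact Or.inl ⟨x, hxb, rfl⟩
  have hno : ∀ y, dist y z = 1 → T y ≠ (col e a ∪ col e 5)ᶜ \ {e x} := by
    intro y hy hTy
    have h1 : T y ⊆ T z := by
      rw [hTy]; exact sdiff_subset.trans hXz
    have h6 : (T y).ncard = 2 := by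
      rw [hTy, Set.ncard_sdiff_singleton_of_mem hd]
      have h7 := Set.ncard_add_ncard_compl (col e a ∪ col e 5)
      rw [hX3, Nat.card_eq_fintype_card, Fintype.card_fin] at h7
      omega
    obtain ⟨l, hl⟩ := C.pairs y hy h6 h1
    refine cnt_key a b c l x ha hbc hab hxb hxc ?_
    rw [← C.Sx_col, ← hl, hTy]
    ext m
    rw [mem_Sx, Finset.mem_sdiff, ← Sx_union C, mem_Sx, hcompl, Finset.mem_singleton]
    constructor
    · rintro ⟨h7, h8⟩
      exact ⟨h7, fun h9 => h8 (by rw [h9]; rfl)⟩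
    · rintro ⟨h7, h8⟩
      exact ⟨h7, fun h9 => h8 (C.inj h9)⟩
  have ends : ∀ {t : ℝ}, t ∈ X5 T z e a → ∃ P, T z ∩ (col e a ∪ col e 5) ⊆ P ∧
      H767.pt z t ∈ closure (H767.Ex T z P) := by
    intro t ht
    obtain ⟨P, hP, hcl⟩ := X5_ex C ht
    refine ⟨P, ?_, hcl⟩
    rintro i ⟨hi, hi' | ⟨l, hl, rfl⟩⟩
    · exact hP hi'
    · exfalso
      have h1 : l = 5 := by
        have h2 : ∀ l : Fin 6, l ∈ ixs 5 → l = 5 := by decide
        exact h2 l hl
      exact (C.pal l).1 hi h1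
  have pal3 : ∀ {t : ℝ}, t ∈ X5 T z e a → t ∈ X5 T z e 5 → T (H767.pt z t) = col e a ∪ col e 5 :=
    fun h1 h2 => pal_of C h1 h2 ha
  have pal3' : ∀ {t : ℝ}, t ∈ X5 T z e b → t ∈ X5 T z e c →
      T (H767.pt z t) = (col e a ∪ col e 5)ᶜ := fun h1 h2 => by rw [pal_of C h1 h2 hbc, hcompl]
  obtain ⟨k1, k2⟩ := one_one_L3 C.irr hL h5 hX3 hXz hd hno (ends hua) (ends hua')
    (pal3 hua hu5) (pal3 hua' hu5') (H767.dist_pt z w) (H767.dist_pt z w') (pal3' hwb hwc)
    (pal3' hwb' hwc')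
  exact ⟨H349.pt_eq k1, H349.pt_eq k2⟩

/-- **The three cases of the pentagon engine.** -/
theorem cnt5_cases_L3 (C : Cn U T z e)
    (hL : L3p T)
    {a b c : Fin 6} (ha : a ≠ 5) (hbc : b ≠ c) (hab : ixs b ∪ ixs c = (ixs a ∪ ixs 5)ᶜ) :
    (∀ u, u ∈ X5 T z e a → u ∉ X5 T z e 5) ∨ (∀ u, u ∈ X5 T z e b → u ∉ X5 T z e c) ∨
    ∃ s t : ℝ, (∀ u, u ∈ X5 T z e a → u ∈ X5 T z e 5 → ∃ n : ℤ, u = s + 6 * (n : ℝ)) ∧
      ∀ u, u ∈ X5 T z e b → u ∈ X5 T z e c → ∃ n : ℤ, u = t + 6 * (n : ℝ) := by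
  by_cases h1 : ∀ u, u ∈ X5 T z e a → u ∉ X5 T z e 5
  · exact Or.inl h1
  by_cases h2 : ∀ u, u ∈ X5 T z e b → u ∉ X5 T z e c
  · exact Or.inr (Or.inl h2)
  push Not at h1 h2
  obtain ⟨s, hs, hs'⟩ := h1
  obtain ⟨t, ht, ht'⟩ := h2
  refine Or.inr (Or.inr ⟨s, t, fun u k1 k2 => ?_, fun u k1 k2 => ?_⟩)
  · exact (cnt5_L3 C hL ha hbc hab k1 k2 hs hs' ht ht' ht ht').1
  · exact (cnt5_L3 C hL ha hbc hab hs hs' hs hs' k1 k2 ht ht').2

/-- **No five coloured point with a clean circle**, `L3p` at the corners. -/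
theorem no_five_L3 (h : Irr U T)
    (hmin : ∀ z, 4 ≤ (T z).ncard → ∀ s, s ⊆ T z → s ≠ T z →
      ¬ ∀ᶠ w in 𝓝 z, ∃ i ∈ s, w ∈ U i ∨ (w ∈ XX U ∧ i ∈ Pal U w))
    (hL : L3p T) (h5 : (T z).ncard = 5) (h3 : ∀ y, dist y z = 1 → (T y).ncard ≤ 3) : False := by
  obtain ⟨e, C⟩ := exists_cn h hmin h5 h3
  refine (H229.cn_pent C).elim fun j => ?_
  obtain ⟨k1, k2, k3⟩ := H229.lets j
  rcases cnt5_cases_L3 C hL k1 k2 k3 with H | H | ⟨s, t, hs, ht⟩
  · exact Or.inl fun u hu => H u hu.1 hu.2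
  · exact Or.inr (Or.inl fun u hu => H u hu.1 hu.2)
  · refine Or.inr (Or.inr ⟨fun u v hu hv => ?_, fun u v hu hv => ?_⟩)
    · obtain ⟨n, hn⟩ := hs u hu.1 hu.2
      obtain ⟨m, hm⟩ := hs v hv.1 hv.2
      exact ⟨m - n, by rw [hn, hm]; push_cast; ring⟩
    · obtain ⟨n, hn⟩ := ht u hu.1 hu.2
      obtain ⟨m, hm⟩ := ht v hv.1 hv.2
      exact ⟨m - n, by rw [hn, hm]; push_cast; ring⟩

/-- **No five coloured point in the world `N3`**, given `L3p`. -/
theorem no_five_N3 (h : Irr U T)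
    (hmin : ∀ z, 4 ≤ (T z).ncard → ∀ s, s ⊆ T z → s ≠ T z →
      ¬ ∀ᶠ w in 𝓝 z, ∃ i ∈ s, w ∈ U i ∨ (w ∈ XX U ∧ i ∈ Pal U w))
    (hN : N3 T) (hL : L3p T) (z : ℂ) : (T z).ncard ≠ 5 := fun h5 =>
  no_five_L3 h hmin hL h5 fun _ hy => hN.clean5 (by omega) hy

end Vale.Agent.P032.R2.H544
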