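import Vale.Agent.P032.R2.H544.Corner
import Vale.Agent.P032.R2.H544.Six3
import Vale.Agent.P032.R2.H171.EmptyV

/-!
# P032: the world with harmless contacts only, no order bound

`Irr.empty_of_harm_top`: if the points on the circles of two-pair points have at most four colours and
those with four colours are harmless (`HarmOnly`), the circles of the points with at least five
colours are clean, and all six colours are active at the points with six colours, then there is a
contradiction.
-/

open Set Filter Topology Metric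

noncomputable section

namespace Vale.Agent.P032.R2.H544

open Vale.Agent.P032 Vale.Agent.P032.Six Vale.Agent.P032.S5 Vale.Agent.P032.S5.H358
open Vale.Agent.P032.S5.H843

variable {U : Fin 6 → Set ℂ} {T : ℂ → Set (Fin 6)}

/-- the circles of the two-pair points are good (171's `noD_of_harm`, local order bound) -/
theorem good_of_harm (h : Irr U T) (hK : HarmOnly T)
    (h4 : ∀ z a b c d, DPt T z a b c d → ∀ y, dist y z = 1 → (T y).ncard ≤ 4) :
    ∀ z a b c d, DPt T z a b c d → Good U T z := by
  intro z a b c d hz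
  obtain ⟨e, f, nd⟩ := hz.exists_nodup
  have hmiss : ∀ i, i ∉ T z → i = e ∨ i = f := fun i hi => (S5.H358.ctr_of_dpt h hz nd).miss hi
  refine good_of_adm h hz nd ⟨fun y hy => ?_, fun y y' hy hy' hyy h1 h2 =>
    h.no_hx_pair hz nd hy hy' hyy h1 h2⟩
  by_cases h3 : (T y).ncard ≤ 3
  · exact Or.inl h3
  · have hy4 : (T y).ncard = 4 := by have := h4 z a b c d hz y hy; omega
    rcases hK hz hy hy4 with ⟨h1, h2, h5⟩ | ⟨h1, h2, h5⟩
    · exact Or.inr (Or.inl (hx_of_harm hy4 hmiss h1 h2 h5))
    · exact Or.inr (Or.inr (hx_of_harm hy4 hmiss h1 h2 h5))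

/-- **Only harmless contacts of two-pair points, clean circles at orders at least five, active points
with six colours: empty.** -/
theorem empty_of_harm_top (h : Irr U T) (hmin : Mn U T)
    (htab : ∀ L ∈ Words6.H122.Lets35, Words6.H358.TreeOK L) (hK : HarmOnly T)
    (h4 : ∀ z a b c d, DPt T z a b c d → ∀ y, dist y z = 1 → (T y).ncard ≤ 4)
    (hcl : ∀ z, 5 ≤ (T z).ncard → ∀ y, dist y z = 1 → (T y).ncard ≤ 3)
    (hact : ∀ z, (T z).ncard = 6 → ∀ i, ∃ q, dist q z = 1 ∧ i ∈ T q ∧ (T q).ncard = 2) : False := by
  have hG := good_of_harm h hK h4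
  have hL : L3p T := L3p_of_ok h hmin fun w a b c d hD => (hG w a b c d hD).1
  have h5 : ∀ w, (T w).ncard ≠ 5 := fun w hw =>
    no_five_L3 h hmin hL hw (hcl w (by omega))
  have h6 : ∀ w, (T w).ncard ≠ 6 := fun w hw =>
    no_six_L3 h hmin htab hL h5 hw (hcl w (by omega)) (hact w hw)
  have hle : ∀ w, (T w).ncard ≤ 4 := by
    intro w
    have h7 : (T w).ncard ≤ 6 := by
      have h1 := Set.ncard_le_ncard (s := T w) (t := univ) (subset_univ _) (Set.toFinite _)
      rwa [Set.ncard_univ, Nat.card_eq_fintype_card, Fintype.card_fin] at h1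
    have := h5 w
    have := h6 w
    omega
  exact h.empty_of_harm hmin hle hK

end Vale.Agent.P032.R2.H544
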